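import Vale.Agent.P121.Smooth

open MeasureTheory

namespace Vale.Agent.Results.P121.NoMonge

open Vale.Agent.P121

/-- Disproof of Q1: an absolutely continuous probability measure on `ℝ³` (even with a smooth,
compactly supported density) with finite Kantorovich value and no optimal Monge plan.
The smoothness exponent `(⊤ : ℕ∞)` means `C^∞`. -/
theorem result :
    ∃ μ : Measure E3, IsProbabilityMeasure μ ∧ μ ≪ (volume : Measure E3) ∧
      (∃ ρ : E3 → ℝ, ContDiff ℝ (⊤ : ℕ∞) ρ ∧ HasCompactSupport ρ ∧ (∀ x, 0 ≤ ρ x) ∧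
        μ = (volume : Measure E3).withDensity fun x => ENNReal.ofReal (ρ x)) ∧
      kantorovichValue μ < ⊤ ∧
      ¬ ∃ T₂ T₃ : E3 → E3, IsOptimalMongePlan μ T₂ T₃ := by
  obtain ⟨ρ, h1, h2, h3, h4, h5, h6⟩ := exists_smooth_counterexample
  exact ⟨_, h4, withDensity_absolutelyContinuous _ _, ⟨ρ, h1, h2, h3, rfl⟩, h5, h6⟩

end Vale.Agent.Results.P121.NoMonge
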